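import Vale.Agent.P136.Part1
import Vale.Agent.P136.Bdry
import Vale.Agent.P136.Sec
import Vale.Agent.P136.Loc
import Vale.Agent.P136.Est

open Vale.Agent.P136

/-- Global uniqueness in the Calderón problem for isotropic elasticity in three dimensions. -/
theorem Vale.Agent.Results.P136.Elasticity.result (Ω : Set E3) (lam₁ mu₁ lam₂ mu₂ : E3 → ℝ)
    (hΩ : SmoothDomain Ω) (h₁ : Admissible Ω lam₁ mu₁) (h₂ : Admissible Ω lam₂ mu₂)
    (hΛ : SameDN Ω lam₁ mu₁ lam₂ mu₂) : ∀ x ∈ Ω, lam₁ x = lam₂ x ∧ mu₁ x = mu₂ x :=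
  s_main s_ext (s_bdry t_cmp s_green s_hardy s_layer s_rho s_wkbMu s_wkbLam) s_ike
    (s_loc t_eta (s_sec t_lm s_coer t_weylLame s_green t_T t_ie)
      (s_est t_ast s_xsys t_ie s_ikeBd) s_wj) t_T t_E1 t_E2 Ω lam₁ mu₁ lam₂ mu₂ hΩ h₁ h₂ hΛ
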